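import Vale.Agent.P228D.Defs

namespace Vale.Agent.P228D

open Set Filter Topology Metric Vale.Agent.Lib.Degree

theorem baireA_pt {p : ℕ} [Fact p.Prime] {n : ℕ} {a : ℤ_[p] → (Fin n → ℝ) → (Fin n → ℝ)}
    (ha : IsDiffAction p a) {ε : ℝ} (hε : 0 < ε) (g : ℤ_[p]) (x : Fin n → ℝ) :
    ∃ k j : ℕ, ∀ v : Fin n → ℝ, ‖v‖ ≤ 1 / ((k : ℝ) + 1) →
      ‖TopologicalSpace.denseSeq ((Fin n → ℝ) →L[ℝ] (Fin n → ℝ)) j (a g (x + v) - a g x) - v‖ ≤
        ε * ‖v‖ := by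
  have hD := (ha.2.2.2 g x).hasFDerivAt
  have hB := (ha.2.2.2 (-g) (a g x)).hasFDerivAt
  generalize fderiv ℝ (a g) x = D at hD
  generalize fderiv ℝ (a (-g)) (a g x) = B₀ at hB
  have hid : B₀.comp D = ContinuousLinearMap.id ℝ _ := by
    have h1 := hB.comp x hD
    have h2 : a (-g) ∘ a g = id := by
      funext y
      rw [Function.comp_apply, ← ha.2.1, neg_add_cancel, ha.1, id]
    rw [h2] at h1
    exact h1.unique (hasFDerivAt_id x)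
  have hD0 : 0 < ‖D‖ + 1 := by positivity
  obtain ⟨j, hj⟩ := (TopologicalSpace.denseRange_denseSeq
    ((Fin n → ℝ) →L[ℝ] (Fin n → ℝ))).exists_dist_lt B₀ (show 0 < ε / 2 / (‖D‖ + 1) by positivity)
  generalize hBj : TopologicalSpace.denseSeq ((Fin n → ℝ) →L[ℝ] (Fin n → ℝ)) j = B at hj
  have h3 := (hasFDerivAt_iff_isLittleO_nhds_zero.1 (B.hasFDerivAt.comp x hD)).bound (half_pos hε)
  obtain ⟨r, hr, h4⟩ := Metric.eventually_nhds_iff.1 h3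
  obtain ⟨k, hk⟩ := exists_nat_one_div_lt hr
  refine ⟨k, j, fun v hv => ?_⟩
  rw [hBj]
  have h5 := h4 (y := v) (by rw [dist_zero_right]; exact hv.trans_lt hk)
  simp only [Function.comp_apply, ContinuousLinearMap.comp_apply] at h5
  have h6 : B₀ (D v) = v := by simpa using congrArg (fun T => T v) hid
  have h7 : ‖(B - B₀) (D v)‖ ≤ ε / 2 * ‖v‖ := by
    rw [dist_comm, dist_eq_norm, lt_div_iff₀ hD0] at hj
    calc _ ≤ ‖B - B₀‖ * (‖D‖ * ‖v‖) :=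
          ((B - B₀).le_opNorm _).trans (mul_le_mul_of_nonneg_left (D.le_opNorm v) (norm_nonneg _))
      _ = ‖B - B₀‖ * ‖D‖ * ‖v‖ := by ring
      _ ≤ _ := by
          refine mul_le_mul_of_nonneg_right ?_ (norm_nonneg _)
          nlinarith [norm_nonneg (B - B₀)]
  have e : B (a g (x + v) - a g x) - v =
      (B (a g (x + v)) - B (a g x) - B (D v)) + (B - B₀) (D v) := by
    rw [map_sub, ContinuousLinearMap.sub_apply, h6]
    abel
  rw [e]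
  refine (norm_add_le _ _).trans ?_
  linarith

theorem baireA {p : ℕ} [Fact p.Prime] {n : ℕ} {a : ℤ_[p] → (Fin n → ℝ) → (Fin n → ℝ)}
    (ha : IsDiffAction p a) (F : Set (Fin n → ℝ)) (hF : IsClosed F) (hne : F.Nonempty)
    (ε : ℝ) (hε : 0 < ε) :
    ∃ (g₀ : ℤ_[p]) (η ρ δ : ℝ) (z : Fin n → ℝ) (B : (Fin n → ℝ) →L[ℝ] (Fin n → ℝ)),
      0 < η ∧ 0 < ρ ∧ 0 < δ ∧ z ∈ F ∧ ∀ g : ℤ_[p], ‖g - g₀‖ < η → ∀ x ∈ F, ‖x - z‖ < ρ →
        ∀ y, ‖y - x‖ ≤ δ → ‖B (a g y - a g x) - (y - x)‖ ≤ ε * ‖y - x‖ := by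
  haveI : CompleteSpace F := hF.completeSpace_coe
  haveI : Nonempty F := hne.to_subtype
  let E : ℕ × ℕ → Set (ℤ_[p] × F) := fun i => {q | ∀ v : Fin n → ℝ, ‖v‖ ≤ 1 / ((i.1 : ℝ) + 1) →
    ‖TopologicalSpace.denseSeq ((Fin n → ℝ) →L[ℝ] (Fin n → ℝ)) i.2
      (a q.1 (q.2.1 + v) - a q.1 q.2.1) - v‖ ≤ ε * ‖v‖}
  have hc : ∀ i, IsClosed (E i) := by
    intro i
    simp only [E, setOf_forall]
    refine isClosed_iInter fun v => isClosed_iInter fun _ => isClosed_le ?_ continuous_const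
    have c1 : Continuous fun q : ℤ_[p] × F => a q.1 (q.2.1 + v) :=
      ha.2.2.1.comp (f := fun q : ℤ_[p] × F => (q.1, q.2.1 + v)) (by fun_prop)
    have c2 : Continuous fun q : ℤ_[p] × F => a q.1 q.2.1 :=
      ha.2.2.1.comp (f := fun q : ℤ_[p] × F => (q.1, q.2.1)) (by fun_prop)
    exact (((ContinuousLinearMap.continuous _).comp (c1.sub c2)).sub continuous_const).norm
  have hU : ⋃ i, E i = univ := by
    refine eq_univ_of_forall fun q => ?_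
    obtain ⟨k, j, h⟩ := baireA_pt ha hε q.1 q.2.1
    exact mem_iUnion.2 ⟨(k, j), h⟩
  obtain ⟨i, q, hq⟩ := nonempty_interior_of_iUnion_of_closed hc hU
  obtain ⟨r, hr, hb⟩ := Metric.mem_nhds_iff.1 (mem_interior_iff_mem_nhds.1 hq)
  refine ⟨q.1, r, r, 1 / ((i.1 : ℝ) + 1), q.2.1,
    TopologicalSpace.denseSeq ((Fin n → ℝ) →L[ℝ] (Fin n → ℝ)) i.2, hr, hr, by positivity, q.2.2,
    fun g hg x hx hxz y hy => ?_⟩
  have hm : (g, (⟨x, hx⟩ : F)) ∈ ball q r := by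
    rw [mem_ball, Prod.dist_eq, max_lt_iff]
    exact ⟨by rwa [dist_eq_norm], by rwa [Subtype.dist_eq, dist_eq_norm]⟩
  have := hb hm (y - x) hy
  simpa using this

end Vale.Agent.P228D
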