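import Vale.Agent.P228D.BaireA

namespace Vale.Agent.P228D

open Set Filter Topology Metric Vale.Agent.Lib.Degree

theorem baireB_avg {E : Type*} [NormedAddCommGroup E] [NormedSpace ℝ E] (u : ℕ → E) (v : E)
    (c K : ℝ) (hK : ∀ i, ‖u i‖ ≤ K) (hu : ∀ i, ‖u (i + 1) - u i - v‖ ≤ c) : ‖v‖ ≤ c := by
  have h1 : ∀ N : ℕ, ‖u N - u 0 - (N : ℝ) • v‖ ≤ N * c := by
    intro N
    induction N with
    | zero => simp
    | succ N ih =>
      have he : u (N + 1) - u 0 - ((N + 1 : ℕ) : ℝ) • v =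
          (u (N + 1) - u N - v) + (u N - u 0 - (N : ℝ) • v) := by
        push_cast
        rw [add_smul, one_smul]
        abel
      rw [he]
      refine (norm_add_le _ _).trans ?_
      push_cast
      linarith [hu N]
  have h2 : ∀ N : ℕ, (N : ℝ) * (‖v‖ - c) ≤ 2 * K := by
    intro N
    have h3 : ‖(N : ℝ) • v‖ ≤ ‖u N - u 0‖ + ‖u N - u 0 - (N : ℝ) • v‖ := by
      have he : (N : ℝ) • v = (u N - u 0) - (u N - u 0 - (N : ℝ) • v) := by abel
      calc ‖(N : ℝ) • v‖ = ‖(u N - u 0) - (u N - u 0 - (N : ℝ) • v)‖ := by rw [← he]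
        _ ≤ _ := norm_sub_le _ _
    rw [norm_smul, Real.norm_natCast] at h3
    have h4 := norm_sub_le (u N) (u 0)
    linarith [h1 N, hK N, hK 0]
  by_contra hc
  push Not at hc
  have hpos : 0 < ‖v‖ - c := sub_pos.2 hc
  obtain ⟨N, hN⟩ := exists_nat_gt (2 * K / (‖v‖ - c))
  rw [div_lt_iff₀ hpos] at hN
  linarith [h2 N]

theorem baireB {p : ℕ} [Fact p.Prime] {n : ℕ} {a : ℤ_[p] → (Fin n → ℝ) → (Fin n → ℝ)}
    (ha : IsDiffAction p a) (F : Set (Fin n → ℝ)) (hF : IsClosed F) (hne : F.Nonempty) :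
    ∃ (z : Fin n → ℝ) (ρ η : ℝ), z ∈ F ∧ 0 < ρ ∧ 0 < η ∧ ∀ h : ℤ_[p], ‖h‖ < η →
      ∀ x ∈ F, ‖x - z‖ < ρ → ∀ y, ‖y - z‖ < ρ → ‖a h y - y‖ ≤ 1 / 50 * ‖y - x‖ := by
  obtain ⟨g₀, η, ρ, δ, z, B, hη, hρ, hδ, hz, hB⟩ := baireA ha F hF hne (1 / 101) (by norm_num)
  obtain ⟨τ, hτ, hcont⟩ := Metric.continuousAt_iff.1
    (ha.2.2.1.continuousAt (x := ((0 : ℤ_[p]), z))) (δ / 2) (by positivity)
  refine ⟨z, min ρ (min τ (δ / 2)), min η τ, hz, by positivity, by positivity, ?_⟩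
  intro h hh x hx hxz y hyz
  simp only [lt_min_iff] at hh hxz hyz
  have hyx : ‖y - x‖ ≤ δ := by
    have := norm_sub_le_norm_sub_add_norm_sub y z x
    rw [norm_sub_rev z x] at this
    linarith [hxz.2.2, hyz.2.2]
  have hy'z : ‖a h y - z‖ < δ / 2 := by
    have h1 : dist ((h, y) : ℤ_[p] × (Fin n → ℝ)) (0, z) < τ := by
      rw [Prod.dist_eq, max_lt_iff, dist_eq_norm, dist_eq_norm]
      exact ⟨by simpa using hh.2, hyz.2.1⟩
    have h2 := hcont h1
    simp only [ha.1] at h2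
    rwa [dist_eq_norm] at h2
  have hy'x : ‖a h y - x‖ ≤ δ := by
    have := norm_sub_le_norm_sub_add_norm_sub (a h y) z x
    rw [norm_sub_rev z x] at this
    linarith [hxz.2.2]
  have hc : Continuous fun g : ℤ_[p] => B (a g y) :=
    B.continuous.comp (ha.2.2.1.comp (continuous_id.prodMk continuous_const))
  obtain ⟨K, hK⟩ := (isCompact_univ (X := ℤ_[p])).exists_bound_of_continuousOn hc.continuousOn
  have hmain := baireB_avg (fun i : ℕ => B (a (g₀ + (i : ℤ_[p]) * h) y)) (a h y - y)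
    (1 / 101 * ‖a h y - x‖ + 1 / 101 * ‖y - x‖) K (fun i => hK _ (mem_univ _)) (by
      intro i
      have hg : ‖g₀ + (i : ℤ_[p]) * h - g₀‖ < η := by
        rw [add_sub_cancel_left, norm_mul]
        calc ‖(i : ℤ_[p])‖ * ‖h‖ ≤ 1 * ‖h‖ :=
              mul_le_mul_of_nonneg_right (PadicInt.norm_le_one _) (norm_nonneg _)
          _ < η := by rw [one_mul]; exact hh.1
      have h1 := hB _ hg x hx hxz.1 (a h y) hy'x
      have h2 := hB _ hg x hx hxz.1 y hyx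
      have h3 : a (g₀ + ((i + 1 : ℕ) : ℤ_[p]) * h) y = a (g₀ + (i : ℤ_[p]) * h) (a h y) := by
        rw [← ha.2.1]
        congr 1
        push_cast
        ring
      have he : B (a (g₀ + ((i + 1 : ℕ) : ℤ_[p]) * h) y) - B (a (g₀ + (i : ℤ_[p]) * h) y) -
          (a h y - y) =
          (B (a (g₀ + (i : ℤ_[p]) * h) (a h y) - a (g₀ + (i : ℤ_[p]) * h) x) - (a h y - x)) -
          (B (a (g₀ + (i : ℤ_[p]) * h) y - a (g₀ + (i : ℤ_[p]) * h) x) - (y - x)) := by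
        rw [h3, map_sub, map_sub]
        abel
      show ‖B (a (g₀ + ((i + 1 : ℕ) : ℤ_[p]) * h) y) - B (a (g₀ + (i : ℤ_[p]) * h) y) -
          (a h y - y)‖ ≤ _
      rw [he]
      exact (norm_sub_le _ _).trans (add_le_add h1 h2))
  have h5 := norm_sub_le_norm_sub_add_norm_sub (a h y) y x
  linarith

end Vale.Agent.P228D
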