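import Mathlib
import Vale.Agent.Lib.Degree.Count

namespace Vale.Agent.P228D

open Set Filter Topology Metric Vale.Agent.Lib.Degree

def IsDiffAction (p : ℕ) [Fact p.Prime] {n : ℕ} (a : ℤ_[p] → (Fin n → ℝ) → (Fin n → ℝ)) : Prop :=
  (∀ x, a 0 x = x) ∧ (∀ g h x, a (g + h) x = a g (a h x)) ∧
    Continuous (fun q : ℤ_[p] × (Fin n → ℝ) => a q.1 q.2) ∧ ∀ g, Differentiable ℝ (a g)

variable {p : ℕ} [Fact p.Prime] {n : ℕ} {a : ℤ_[p] → (Fin n → ℝ) → (Fin n → ℝ)}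

theorem IsDiffAction.iter (ha : IsDiffAction p a) (h : ℤ_[p]) (i : ℕ) (y : Fin n → ℝ) :
    (a h)^[i] y = a ((i : ℤ_[p]) * h) y := by
  induction i with
  | zero => simp [ha.1]
  | succ i ih =>
    rw [Function.iterate_succ_apply', ih, ← ha.2.1]
    congr 1
    push_cast
    ring

theorem IsDiffAction.inj (ha : IsDiffAction p a) (g : ℤ_[p]) : Function.Injective (a g) := by
  intro x y h
  have := congrArg (a (-g)) h
  rwa [← ha.2.1, ← ha.2.1, neg_add_cancel, ha.1, ha.1] at this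

theorem IsDiffAction.iter_pow (ha : IsDiffAction p a) (m s : ℕ) (y : Fin n → ℝ) :
    (a ((p : ℤ_[p]) ^ m))^[p ^ s] y = a ((p : ℤ_[p]) ^ (m + s)) y := by
  rw [ha.iter]
  congr 1
  push_cast
  ring

theorem IsDiffAction.mono (ha : IsDiffAction p a) {m k : ℕ} (hmk : m ≤ k) {y : Fin n → ℝ}
    (h : a ((p : ℤ_[p]) ^ m) y = y) : a ((p : ℤ_[p]) ^ k) y = y := by
  obtain ⟨s, rfl⟩ := Nat.exists_eq_add_of_le hmk
  rw [← ha.iter_pow]
  exact Function.iterate_fixed h _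

end Vale.Agent.P228D
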