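import Vale.Agent.P228D.Defs

namespace Vale.Agent.P228D

open Set Filter Topology Metric Vale.Agent.Lib.Degree

theorem touch {n : ℕ} (O : Set (Fin n → ℝ)) (ho : IsOpen O) (hne : O.Nonempty) (hnu : O ≠ univ) :
    ∃ z, z ∉ O ∧ ∀ f : (Fin n → ℝ) → (Fin n → ℝ), DifferentiableAt ℝ f z → (∀ y ∈ O, f y = y) →
      ∀ ε : ℝ, 0 < ε → ∀ᶠ y in 𝓝 z, ‖f y - y‖ ≤ ε * ‖y - z‖ := by
  obtain ⟨u, hu⟩ := hne
  have hc : (Oᶜ).Nonempty := nonempty_compl.2 hnu
  obtain ⟨z, hz, hd⟩ := ho.isClosed_compl.exists_infDist_eq_dist hc u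
  have hR : 0 < dist u z := dist_pos.2 fun h => hz (h ▸ hu)
  have hball : ball u (dist u z) ⊆ O := by
    intro y hy
    by_contra h
    have h1 : infDist u Oᶜ ≤ dist u y := infDist_le_dist_of_mem h
    rw [mem_ball'] at hy
    linarith
  have hcl : z ∈ closure (ball u (dist u z)) := by
    rw [closure_ball u hR.ne', mem_closedBall']
  have hud : UniqueDiffWithinAt ℝ (ball u (dist u z)) z :=
    uniqueDiffWithinAt_convex (convex_ball _ _)
      (by rw [isOpen_ball.interior_eq]; exact nonempty_ball.2 hR) hcl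
  refine ⟨z, hz, fun f hf hfO ε hε => ?_⟩
  have hfz : f z = z := by
    have h1 : ContinuousWithinAt f (ball u (dist u z)) z := hf.continuousAt.continuousWithinAt
    have h2 : Tendsto f (𝓝[ball u (dist u z)] z) (𝓝 z) := by
      refine (tendsto_id.mono_left nhdsWithin_le_nhds).congr' ?_
      filter_upwards [self_mem_nhdsWithin] with y hy
      exact (hfO y (hball hy)).symm
    haveI := mem_closure_iff_nhdsWithin_neBot.1 hcl
    exact tendsto_nhds_unique h1 h2
  have h1 : HasFDerivWithinAt f (ContinuousLinearMap.id ℝ (Fin n → ℝ)) (ball u (dist u z)) z :=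
    (hasFDerivWithinAt_id z _).congr (fun y hy => hfO y (hball hy)) hfz
  have h2 : fderiv ℝ f z = ContinuousLinearMap.id ℝ (Fin n → ℝ) :=
    hud.eq hf.hasFDerivAt.hasFDerivWithinAt h1
  have h3 := hf.hasFDerivAt.isLittleO
  rw [h2, hfz] at h3
  filter_upwards [h3.def hε] with y hy
  simpa using hy

end Vale.Agent.P228D
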