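import Vale.Agent.P228D.Step1
import Vale.Agent.P228D.Touch

namespace Vale.Agent.P228D

open Set Filter Topology Metric Vale.Agent.Lib.Degree

theorem final {p : ℕ} [Fact p.Prime] {n : ℕ} {a : ℤ_[p] → (Fin n → ℝ) → (Fin n → ℝ)}
    (ha : IsDiffAction p a) : ∃ m : ℕ, ∀ x, a ((p : ℤ_[p]) ^ m) x = x := by
  obtain ⟨m, hm⟩ := step1 ha 0
  refine ⟨m, ?_⟩
  by_contra hne
  have hnu : interior {y | a ((p : ℤ_[p]) ^ m) y = y} ≠ univ := fun e => hne fun x =>
    interior_subset (s := {y | a ((p : ℤ_[p]) ^ m) y = y}) (by rw [e]; trivial)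
  obtain ⟨z, hz, H⟩ := touch _ isOpen_interior ⟨0, hm⟩ hnu
  obtain ⟨k, hk⟩ := step1 ha z
  have h1 : ∀ᶠ y in 𝓝 z, (a ((p : ℤ_[p]) ^ m))^[p ^ k] y = y := by
    filter_upwards [mem_interior_iff_mem_nhds.1 hk] with y hy
    rw [ha.iter_pow]
    exact ha.mono (Nat.le_add_left k m) hy
  have h2 : ∀ᶠ y in 𝓝 z, ∀ i ∈ Finset.range (p ^ k),
      ‖(a ((p : ℤ_[p]) ^ m))^[i] y - y‖ ≤ 1 / 30 * ‖y - z‖ :=
    (eventually_all_finset _).2 fun i _ => H _ ((ha.2.2.2 _).iterate i z)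
      (fun y hy => Function.iterate_fixed
        (interior_subset (s := {y | a ((p : ℤ_[p]) ^ m) y = y}) hy) i) _ (by norm_num)
  obtain ⟨δ, δ0, hδ⟩ := Metric.eventually_nhds_iff.1 (h1.and h2)
  have h3 : ∀ y, dist y z < δ → ∀ i, ‖(a ((p : ℤ_[p]) ^ m))^[i] y - y‖ ≤ 1 / 30 * ‖y - z‖ := by
    intro y hy i
    have per : Function.IsPeriodicPt (a ((p : ℤ_[p]) ^ m)) (p ^ k) y := (hδ hy).1
    rw [← per.iterate_mod_apply]
    exact (hδ hy).2 _ (Finset.mem_range.2 (Nat.mod_lt _ (pow_pos (Fact.out : p.Prime).pos k)))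
  refine hz (mem_interior_iff_mem_nhds.2 (Metric.eventually_nhds_iff.2
    ⟨δ / 2, half_pos δ0, fun y0 hy0 => ?_⟩))
  by_cases e : y0 = z
  · have := h3 z (by simpa using δ0) 1
    rw [sub_self, norm_zero, mul_zero, norm_le_zero_iff, sub_eq_zero] at this
    rw [e]
    exact this
  · have r0 : 0 < dist y0 z := dist_pos.2 e
    have b : ∀ y ∈ closedBall y0 (dist y0 z / 2), dist y z ≤ 3 * (dist y0 z / 2) := fun y hy => by
      have := dist_triangle y y0 z
      rw [mem_closedBall] at hy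
      linarith
    refine newman p k (ha.2.2.2 _) (ha.inj _) y0 (dist y0 z / 2) (half_pos r0)
      (fun y hy => (hδ (by linarith [b y hy])).1) fun i y hy => ?_
    have := h3 y (by linarith [b y hy]) i
    rw [← dist_eq_norm y z] at this
    linarith [b y hy]

end Vale.Agent.P228D
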