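import Vale.Agent.P228D.Defs

namespace Vale.Agent.P228D

open Set Filter Topology Metric Vale.Agent.Lib.Degree

theorem modp_dvd {α : Type} (p s : ℕ) [Fact p.Prime] (γ : α → α) (Z : Finset α)
    (hZ : ∀ z ∈ Z, γ z ∈ Z) (hper : ∀ z ∈ Z, γ^[p ^ s] z = z) (hfree : ∀ z ∈ Z, γ z ≠ z) :
    p ∣ Z.card := by
  classical
  let f : Function.End {z // z ∈ Z} := fun z => ⟨γ z.1, hZ z.1 z.2⟩
  have hit : ∀ (k : ℕ) (z : {z // z ∈ Z}), ((f ^ k : Function.End {z // z ∈ Z}) z).1 = γ^[k] z.1 := by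
    intro k
    induction k with
    | zero => intro z; rfl
    | succ k ih =>
      intro z
      rw [pow_succ, Function.iterate_succ_apply]
      exact ih (f z)
  have hf : f ^ p ^ s = 1 := by
    funext z
    exact Subtype.ext ((hit _ z).trans (hper z.1 z.2))
  have h := Equiv.Perm.card_fixedPoints_modEq hf
  have h0 : Fintype.card f.fixedPoints = 0 := by
    rw [Fintype.card_eq_zero_iff]
    exact ⟨fun z => hfree z.1.1 z.1.2 (congrArg Subtype.val z.2)⟩
  rw [h0, Fintype.card_coe] at h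
  exact (Nat.modEq_zero_iff_dvd).1 h

theorem modp {α : Type} (p s : ℕ) [Fact p.Prime] (γ : α → α) (Z : Finset α) (d : α → ℝ)
    (hZ : ∀ z ∈ Z, γ z ∈ Z) (hper : ∀ z ∈ Z, γ^[p ^ s] z = z) (hfree : ∀ z ∈ Z, γ z ≠ z)
    (hP : ∀ z ∈ Z, (0 < d (γ z) ↔ 0 < d z)) :
    ∑ z ∈ Z, (if 0 < d z then (1 : ℝ) else -1) ≠ 1 := by
  classical
  have h1 : p ∣ (Z.filter fun z => 0 < d z).card := by
    refine modp_dvd p s γ _ (fun z hz => ?_) (fun z hz => hper z (Finset.mem_filter.1 hz).1)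
      (fun z hz => hfree z (Finset.mem_filter.1 hz).1)
    rw [Finset.mem_filter] at hz ⊢
    exact ⟨hZ z hz.1, (hP z hz.1).2 hz.2⟩
  have h2 : p ∣ (Z.filter fun z => ¬ 0 < d z).card := by
    refine modp_dvd p s γ _ (fun z hz => ?_) (fun z hz => hper z (Finset.mem_filter.1 hz).1)
      (fun z hz => hfree z (Finset.mem_filter.1 hz).1)
    rw [Finset.mem_filter] at hz ⊢
    exact ⟨hZ z hz.1, fun h => hz.2 ((hP z hz.1).1 h)⟩
  intro h
  rw [Finset.sum_ite, Finset.sum_const, Finset.sum_const, nsmul_eq_mul, nsmul_eq_mul] at h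
  have h3 : (Z.filter fun z => 0 < d z).card = (Z.filter fun z => ¬ 0 < d z).card + 1 := by
    have : ((Z.filter fun z => 0 < d z).card : ℝ) =
        ((Z.filter fun z => ¬ 0 < d z).card : ℝ) + 1 := by linarith
    exact_mod_cast this
  rw [h3] at h1
  exact (Fact.out : p.Prime).one_lt.ne' (Nat.dvd_one.1 ((Nat.dvd_add_right h2).1 h1))

end Vale.Agent.P228D
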