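import Vale.Agent.P228D.Defs

namespace Vale.Agent.P228D

open Set Filter Topology Metric Vale.Agent.Lib.Degree

theorem deg_near {n : ℕ} {f : (Fin n → ℝ) → (Fin n → ℝ)} (hf : Continuous f)
    (y₀ w : Fin n → ℝ) (r : ℝ) (hr : 0 < r) (hw : ‖w - y₀‖ < r / 2)
    (hd : ∀ y ∈ closedBall y₀ r, ‖f y - y‖ ≤ r / 10) :
    deg (fun y => f y - w) (ball y₀ r) = 1 := by
  have hdet : (ContinuousLinearMap.id ℝ (Fin n → ℝ)).det = 1 := by
    simp [ContinuousLinearMap.det]
  have h1 := deg_affine (L := ContinuousLinearMap.id ℝ (Fin n → ℝ)) (by rw [hdet]; norm_num) y₀ hr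
  rw [hdet, if_pos one_pos] at h1
  rw [← h1]
  symm
  refine deg_rouche (by fun_prop) (by fun_prop) isOpen_ball isBounded_ball ?_
  intro x hx
  have hs : x ∈ sphere y₀ r := frontier_ball_subset_sphere hx
  have hn : ‖x - y₀‖ = r := mem_sphere_iff_norm.1 hs
  have h2 := hd x (sphere_subset_closedBall hs)
  simp only [ContinuousLinearMap.id_apply]
  have e : f x - w - (x - y₀) = (f x - x) - (w - y₀) := by abel
  rw [e, hn]
  have := norm_sub_le (f x - x) (w - y₀)
  linarith

end Vale.Agent.P228D
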