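import Vale.Agent.P228D.Orient
import Vale.Agent.P228D.ModP

namespace Vale.Agent.P228D

open Set Filter Topology Metric Vale.Agent.Lib.Degree

theorem newman {n : ℕ} (p s : ℕ) [Fact p.Prime] {γ : (Fin n → ℝ) → (Fin n → ℝ)}
    (hγ : Differentiable ℝ γ) (hinj : Function.Injective γ) (y₀ : Fin n → ℝ) (r : ℝ) (hr : 0 < r)
    (hper : ∀ y ∈ closedBall y₀ r, γ^[p ^ s] y = y)
    (hd : ∀ i : ℕ, ∀ y ∈ closedBall y₀ r, ‖γ^[i] y - y‖ ≤ r / 10) : γ y₀ = y₀ := by
  by_contra hne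
  have hp : p.Prime := Fact.out
  have hq0 : 0 < p ^ s := pow_pos hp.pos s
  have hqR : (0 : ℝ) < ((p ^ s : ℕ) : ℝ) := by exact_mod_cast hq0
  obtain ⟨Φ, hΦ⟩ : ∃ Φ : (Fin n → ℝ) → (Fin n → ℝ),
      Φ = fun y => (((p ^ s : ℕ) : ℝ))⁻¹ • ∑ i ∈ Finset.range (p ^ s), γ^[i] y := ⟨_, rfl⟩
  have hΦd : Differentiable ℝ Φ := by
    rw [hΦ]
    have h1 : Differentiable ℝ (fun y => ∑ i ∈ Finset.range (p ^ s), γ^[i] y) :=
      Differentiable.fun_sum fun i _ => hγ.iterate i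
    exact h1.fun_const_smul _
  have hconst : ∀ y : Fin n → ℝ,
      (((p ^ s : ℕ) : ℝ))⁻¹ • ∑ _i ∈ Finset.range (p ^ s), y = y := by
    intro y
    rw [Finset.sum_const, Finset.card_range, ← Nat.cast_smul_eq_nsmul ℝ, smul_smul,
      inv_mul_cancel₀ hqR.ne', one_smul]
  have hΦn : ∀ y ∈ closedBall y₀ r, ‖Φ y - y‖ ≤ r / 10 := by
    intro y hy
    have e : Φ y - y = (((p ^ s : ℕ) : ℝ))⁻¹ • ∑ i ∈ Finset.range (p ^ s), (γ^[i] y - y) := by
      rw [Finset.sum_sub_distrib, smul_sub, hconst, hΦ]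
    rw [e, norm_smul, Real.norm_eq_abs, abs_of_pos (inv_pos.2 hqR)]
    have h1 : ‖∑ i ∈ Finset.range (p ^ s), (γ^[i] y - y)‖ ≤ ((p ^ s : ℕ) : ℝ) * (r / 10) := by
      refine (norm_sum_le _ _).trans ?_
      have := Finset.sum_le_card_nsmul (Finset.range (p ^ s)) (fun i => ‖γ^[i] y - y‖) (r / 10)
        (fun i _ => hd i y hy)
      rwa [Finset.card_range, nsmul_eq_mul] at this
    calc (((p ^ s : ℕ) : ℝ))⁻¹ * ‖∑ i ∈ Finset.range (p ^ s), (γ^[i] y - y)‖
        ≤ (((p ^ s : ℕ) : ℝ))⁻¹ * (((p ^ s : ℕ) : ℝ) * (r / 10)) :=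
          mul_le_mul_of_nonneg_left h1 (inv_pos.2 hqR).le
      _ = r / 10 := by rw [← mul_assoc, inv_mul_cancel₀ hqR.ne', one_mul]
  have hΦγ : ∀ y ∈ closedBall y₀ r, Φ (γ y) = Φ y := by
    intro y hy
    have h1 := Finset.sum_range_succ' (fun i => γ^[i] y) (p ^ s)
    have h2 := Finset.sum_range_succ (fun i => γ^[i] y) (p ^ s)
    rw [h2, hper y hy] at h1
    simp only [Function.iterate_zero, id_eq, add_left_inj, Function.iterate_succ_apply] at h1
    rw [hΦ]
    simp only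
    rw [h1]
  have hopen : IsOpen ({w | γ w ≠ w} ∩ ball y₀ (r / 10)) :=
    (isOpen_ne_fun hγ.continuous continuous_id).inter isOpen_ball
  have hnull := sard (h := Φ) (U := univ) (fun x _ => hΦd x)
  obtain ⟨w, ⟨hw1, hw2⟩, hw3⟩ : ∃ w, w ∈ ({w | γ w ≠ w} ∩ ball y₀ (r / 10)) ∧
      w ∉ Φ '' {x | x ∈ univ ∧ (fderiv ℝ Φ x).det = 0} := by
    by_contra hc
    push Not at hc
    have h0 : MeasureTheory.volume ({w | γ w ≠ w} ∩ ball y₀ (r / 10)) = 0 :=
      MeasureTheory.measure_mono_null (fun w hw => hc w hw) hnull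
    have hpos := hopen.measure_pos MeasureTheory.volume
      ⟨y₀, hne, mem_ball_self (by positivity)⟩
    exact hpos.ne' h0
  have hw2' : ‖w - y₀‖ < r / 10 := by rwa [mem_ball, dist_eq_norm] at hw2
  have hw1' : γ w ≠ w := hw1
  have hzero : ∀ y ∈ closedBall y₀ r, Φ y - w = 0 → ‖y - y₀‖ < r / 5 := by
    intro y hy h0
    have e : y - y₀ = (w - y₀) - (Φ y - y) := by
      rw [sub_eq_zero.1 h0]
      abel
    have h1 := norm_sub_le (w - y₀) (Φ y - y)
    have h2 := hΦn y hy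
    rw [e]
    linarith
  have hdeg : deg (fun y => Φ y - w) (ball y₀ r) = 1 :=
    deg_near hΦd.continuous y₀ w r hr (by linarith) hΦn
  have hfd : ∀ x, fderiv ℝ (fun y => Φ y - w) x = fderiv ℝ Φ x := fun x => fderiv_sub_const w
  have hregΦ : ∀ x, Φ x - w = 0 → (fderiv ℝ Φ x).det ≠ 0 := by
    intro x h0 hdet
    exact hw3 ⟨x, ⟨mem_univ _, hdet⟩, sub_eq_zero.1 h0⟩
  obtain ⟨Z, hZ, hsum⟩ := deg_signs (g := fun y => Φ y - w) (hΦd.sub_const w)
    (Ω := ball y₀ r) isOpen_ball isBounded_ball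
    (by
      intro x hx h0
      have hs := frontier_ball_subset_sphere hx
      have h1 := hzero x (sphere_subset_closedBall hs) h0
      rw [mem_sphere, dist_eq_norm] at hs
      linarith)
    (by
      intro x _ h0
      rw [hfd]
      exact hregΦ x h0)
  have hd1 : ∀ y ∈ closedBall y₀ r, ‖γ y - y‖ ≤ r / 10 := fun y hy => by
    simpa using hd 1 y hy
  refine modp p s γ Z (fun z => (fderiv ℝ (fun y => Φ y - w) z).det) ?_ ?_ ?_ ?_
    (hsum.symm.trans hdeg)
  · intro z hz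
    obtain ⟨hz1, hz2⟩ := (hZ z).1 hz
    have hzc := ball_subset_closedBall hz1
    refine (hZ _).2 ⟨?_, ?_⟩
    · rw [mem_ball, dist_eq_norm]
      have e : γ z - y₀ = (γ z - z) + (z - y₀) := by abel
      have h1 := norm_add_le (γ z - z) (z - y₀)
      have h2 := hd1 z hzc
      have h3 := hzero z hzc hz2
      rw [e]
      linarith
    · show Φ (γ z) - w = 0
      rw [hΦγ z hzc]
      exact hz2
  · intro z hz
    exact hper z (ball_subset_closedBall ((hZ z).1 hz).1)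
  · intro z hz hfix
    obtain ⟨_, hz2⟩ := (hZ z).1 hz
    have h1 : Φ z = z := by
      rw [hΦ]
      simp only
      rw [Finset.sum_congr rfl fun i _ => Function.iterate_fixed hfix i]
      exact hconst z
    have h2 : z = w := by
      have : Φ z - w = 0 := hz2
      rw [h1] at this
      exact sub_eq_zero.1 this
    exact hw1' (h2 ▸ hfix)
  · intro z hz
    obtain ⟨hz1, hz2⟩ := (hZ z).1 hz
    have hzc := ball_subset_closedBall hz1
    have hev : (Φ ∘ γ) =ᶠ[𝓝 z] Φ := by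
      filter_upwards [isOpen_ball.mem_nhds hz1] with y hy
      exact hΦγ y (ball_subset_closedBall hy)
    have hchain : (fderiv ℝ Φ (γ z)).comp (fderiv ℝ γ z) = fderiv ℝ Φ z := by
      rw [← fderiv_comp z (hΦd _) (hγ _)]
      exact hev.fderiv_eq
    have hdet : (fderiv ℝ Φ (γ z)).det * (fderiv ℝ γ z).det = (fderiv ℝ Φ z).det := by
      rw [← hchain]
      unfold ContinuousLinearMap.det
      rw [← LinearMap.det_comp]
      rfl
    have hne0 : (fderiv ℝ γ z).det ≠ 0 := by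
      intro h0
      rw [h0, mul_zero] at hdet
      exact hregΦ z hz2 hdet.symm
    have hpos := orient hγ hinj y₀ z r hr (by have := hzero z hzc hz2; linarith) hd1 hne0
    simp only [hfd]
    rw [← hdet]
    exact (mul_pos_iff_of_pos_right hpos).symm

end Vale.Agent.P228D
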