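import Vale.Agent.P228D.Cnt
import Vale.Agent.P228D.Near

namespace Vale.Agent.P228D

open Set Filter Topology Metric Vale.Agent.Lib.Degree

theorem orient {n : ℕ} {γ : (Fin n → ℝ) → (Fin n → ℝ)} (hγ : Differentiable ℝ γ)
    (hinj : Function.Injective γ) (y₀ z : Fin n → ℝ) (r : ℝ) (hr : 0 < r)
    (hz : ‖z - y₀‖ ≤ 3 * r / 10) (hd : ∀ y ∈ closedBall y₀ r, ‖γ y - y‖ ≤ r / 10)
    (hdet : (fderiv ℝ γ z).det ≠ 0) : 0 < (fderiv ℝ γ z).det := by
  have hzb : z ∈ ball y₀ r := mem_ball_iff_norm.2 (by linarith)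
  have hw : ‖γ z - y₀‖ < r / 2 := by
    have h1 := hd z (ball_subset_closedBall hzb)
    have h2 := norm_sub_le_norm_sub_add_norm_sub (γ z) z y₀
    linarith
  have h1 := deg_near hγ.continuous y₀ (γ z) r hr hw hd
  have h0 : ∀ x, γ x - γ z = 0 → x = z := fun x h => hinj (sub_eq_zero.1 h)
  obtain ⟨Z, hZ, h2⟩ := deg_signs (g := fun y => γ y - γ z) (hγ.sub_const _) isOpen_ball
    (isBounded_ball (x := y₀) (r := r)) (fun x hx h => by
      rw [isOpen_ball.frontier_eq, h0 x h] at hx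
      exact hx.2 hzb) (fun x _ h => by rwa [fderiv_sub_const, h0 x h])
  have e : Z = {z} := by
    ext x
    rw [hZ, Finset.mem_singleton]
    exact ⟨fun h => h0 x h.2, fun h => by rw [h]; exact ⟨hzb, sub_self _⟩⟩
  rw [h1, e, Finset.sum_singleton, fderiv_sub_const] at h2
  by_contra hn
  rw [if_neg hn] at h2
  norm_num at h2

end Vale.Agent.P228D
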