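import Vale.Agent.P228D.Newman
import Vale.Agent.P228D.BaireB

namespace Vale.Agent.P228D

open Set Filter Topology Metric Vale.Agent.Lib.Degree

theorem step1 {p : ℕ} [Fact p.Prime] {n : ℕ} {a : ℤ_[p] → (Fin n → ℝ) → (Fin n → ℝ)}
    (ha : IsDiffAction p a) (x : Fin n → ℝ) :
    ∃ m : ℕ, x ∈ interior {y | a ((p : ℤ_[p]) ^ m) y = y} := by
  by_contra hc
  obtain ⟨O, hO⟩ : ∃ O : ℕ → Set (Fin n → ℝ),
      ∀ m, O m = interior {y | a ((p : ℤ_[p]) ^ m) y = y} := ⟨_, fun _ => rfl⟩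
  have hOo : ∀ m, IsOpen (O m) := fun m => hO m ▸ isOpen_interior
  have hOm : Monotone O := fun m k hmk => by
    rw [hO, hO]
    exact interior_mono fun y hy => ha.mono hmk hy
  have hF : IsClosed (⋃ m, O m)ᶜ := (isOpen_iUnion hOo).isClosed_compl
  have hne : (⋃ m, O m)ᶜ.Nonempty := ⟨x, fun h => by
    obtain ⟨m, hm⟩ := mem_iUnion.1 h
    exact hc ⟨m, hO m ▸ hm⟩⟩
  obtain ⟨z, ρ, η, hz, hρ, hη, hB⟩ := baireB ha _ hF hne
  have hp1 : ‖(p : ℤ_[p])‖ < 1 := by
    rw [PadicInt.norm_p]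
    exact inv_lt_one_of_one_lt₀ (by exact_mod_cast (Fact.out : p.Prime).one_lt)
  obtain ⟨m0, hm0⟩ := exists_pow_lt_of_lt_one hη hp1
  have hsmall : ∀ c : ℤ_[p], ‖c * (p : ℤ_[p]) ^ m0‖ < η := fun c => by
    rw [norm_mul, norm_pow]
    exact lt_of_le_of_lt (mul_le_of_le_one_left (by positivity) (PadicInt.norm_le_one c)) hm0
  have key : ∀ y0 ∈ ball z (ρ / 4), a ((p : ℤ_[p]) ^ m0) y0 = y0 := by
    intro y0 hy0
    rw [mem_ball] at hy0
    by_cases hyF : y0 ∈ (⋃ m, O m)ᶜ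
    · have h1 : ‖y0 - z‖ < ρ := by rw [← dist_eq_norm]; linarith
      have h2 := hB _ (hsmall 1) y0 hyF h1 y0 h1
      rw [one_mul, sub_self, norm_zero, mul_zero] at h2
      exact sub_eq_zero.1 (norm_le_zero_iff.1 h2)
    · have hd : 0 < infDist y0 (⋃ m, O m)ᶜ := (hF.notMem_iff_infDist_pos hne).1 hyF
      obtain ⟨x', hx', hxd⟩ := hF.exists_infDist_eq_dist hne y0
      have hdz : infDist y0 (⋃ m, O m)ᶜ ≤ dist y0 z := infDist_le_dist_of_mem hz
      obtain ⟨r, hr⟩ : ∃ r, r = infDist y0 (⋃ m, O m)ᶜ / 2 := ⟨_, rfl⟩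
      have hr0 : 0 < r := by rw [hr]; linarith
      have hsub : closedBall y0 r ⊆ ⋃ m, O m := by
        intro y hy
        by_contra hyn
        have h1 : infDist y0 (⋃ m, O m)ᶜ ≤ dist y0 y := infDist_le_dist_of_mem hyn
        rw [mem_closedBall, dist_comm] at hy
        linarith
      obtain ⟨k, hk⟩ := (isCompact_closedBall y0 r).elim_directed_cover O hOo hsub
        hOm.directed_le
      refine newman p k (ha.2.2.2 _) (ha.inj _) y0 r hr0 (fun y hy => ?_) (fun i y hy => ?_)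
      · rw [ha.iter_pow]
        have h1 : y ∈ O k := hk hy
        rw [hO] at h1
        have h2 := interior_subset h1
        exact ha.mono (Nat.le_add_left k m0) h2
      · rw [ha.iter]
        rw [mem_closedBall] at hy
        have t1 := dist_triangle x' y0 z
        have t2 := dist_triangle y y0 z
        have t3 := dist_triangle y y0 x'
        rw [dist_comm x' y0] at t1
        have h1 := hB _ (hsmall i) x' hx' (by rw [← dist_eq_norm]; linarith) y
          (by rw [← dist_eq_norm]; linarith)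
        rw [← dist_eq_norm y x'] at h1
        linarith
  refine hz (mem_iUnion.2 ⟨m0, ?_⟩)
  rw [hO]
  exact mem_interior.2 ⟨ball z (ρ / 4), key, isOpen_ball, mem_ball_self (by linarith)⟩

end Vale.Agent.P228D
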